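import Mathlib

/-!
Seymour's second neighbourhood conjecture for vertex-transitive oriented graphs.

The proof goes through Kemperman's theorem on product sets with a uniquely represented element
(`kemperman` below), applied inside the automorphism group.
-/

namespace Vale.Agent.Results.P038.VertexTransitive

open Finset
open scoped Pointwise

section Kemperman

variable {G : Type} [Group G] [DecidableEq G]

theorem kemperman_aux : ∀ (m n : ℕ) (A B : Finset G), (1 : G) ∈ A → (1 : G) ∈ B →
    (∀ a ∈ A, ∀ b ∈ B, a * b = 1 → a = 1) →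
    2 * (A * B).card < m + A.card + B.card → B.card ≤ n →
    A.card + B.card ≤ (A * B).card + 1 := by
  intro m
  induction m using Nat.strong_induction_on with
  | _ m ihm =>
  intro n
  induction n using Nat.strong_induction_on with
  | _ n ihn =>
  intro A B hA hB huniq hm hn
  have hAsub : A ⊆ A * B := fun a ha => by
    rw [Finset.mem_mul]; exact ⟨a, ha, 1, hB, mul_one a⟩
  have hBsub : B ⊆ A * B := fun b hb => by
    rw [Finset.mem_mul]; exact ⟨1, hA, b, hb, one_mul b⟩
  by_cases hAB : A ∩ B = {1}
  · have h1 : (A ∪ B).card + (A ∩ B).card = A.card + B.card :=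
      Finset.card_union_add_card_inter A B
    rw [hAB, Finset.card_singleton] at h1
    have h2 : (A ∪ B).card ≤ (A * B).card :=
      Finset.card_le_card (Finset.union_subset hAsub hBsub)
    omega
  · have hex : ∃ x ∈ A ∩ B, x ≠ 1 := by
      by_contra hcon
      push Not at hcon
      apply hAB
      ext y
      simp only [Finset.mem_singleton]
      constructor
      · exact hcon y
      · rintro rfl; exact Finset.mem_inter.mpr ⟨hA, hB⟩
    obtain ⟨x, hx, hx1⟩ := hex
    have hxA : x ∈ A := (Finset.mem_inter.mp hx).1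
    have hxB : x ∈ B := (Finset.mem_inter.mp hx).2
    have hxiB : x⁻¹ ∉ B := fun h => hx1 (huniq x hxA x⁻¹ h (mul_inv_cancel x))
    have hxiA : x⁻¹ ∉ A := fun h => hx1 (by
      have h' := huniq x⁻¹ h x hxB (inv_mul_cancel x)
      exact inv_eq_one.mp h')
    -- the two transforms
    have hA'' : A ∩ A.image (· * x) = (A.filter (fun a => a * x ∈ A)).image (· * x) := by
      ext y
      simp only [Finset.mem_inter, Finset.mem_image, Finset.mem_filter]
      constructor
      · rintro ⟨hy, a, ha, rfl⟩
        exact ⟨a, ⟨ha, hy⟩, rfl⟩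
      · rintro ⟨a, ⟨ha, hax⟩, rfl⟩
        exact ⟨hax, a, ha, rfl⟩
    have hB' : B ∩ B.image (x * ·) = (B.filter (fun b => x * b ∈ B)).image (x * ·) := by
      ext y
      simp only [Finset.mem_inter, Finset.mem_image, Finset.mem_filter]
      constructor
      · rintro ⟨hy, b, hb, rfl⟩
        exact ⟨b, ⟨hb, hy⟩, rfl⟩
      · rintro ⟨b, ⟨hb, hxb⟩, rfl⟩
        exact ⟨hxb, b, hb, rfl⟩
    have hcA : (A ∪ A.image (· * x)).card + (A.filter (fun a => a * x ∈ A)).card
        = 2 * A.card := by
      have h1 := Finset.card_union_add_card_inter A (A.image (· * x))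
      rw [hA'', Finset.card_image_of_injective _ (mul_left_injective x),
        Finset.card_image_of_injective _ (mul_left_injective x)] at h1
      omega
    have hcB : (B.filter (fun b => x * b ∈ B)).card + (B ∪ B.image (x * ·)).card
        = 2 * B.card := by
      have h1 := Finset.card_union_add_card_inter B (B.image (x * ·))
      rw [hB', Finset.card_image_of_injective _ (mul_right_injective x),
        Finset.card_image_of_injective _ (mul_right_injective x)] at h1
      omega
    -- products stay inside `A * B`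
    have hsub1 : (A ∪ A.image (· * x)) * (B.filter (fun b => x * b ∈ B)) ⊆ A * B := by
      intro y hy
      rw [Finset.mem_mul] at hy
      obtain ⟨a', ha', b', hb', rfl⟩ := hy
      rw [Finset.mem_filter] at hb'
      rw [Finset.mem_mul]
      rcases Finset.mem_union.mp ha' with ha | him
      · exact ⟨a', ha, b', hb'.1, rfl⟩
      · obtain ⟨a, ha, rfl⟩ := Finset.mem_image.mp him
        exact ⟨a, ha, x * b', hb'.2, by group⟩
    have hsub2 : (A.filter (fun a => a * x ∈ A)) * (B ∪ B.image (x * ·)) ⊆ A * B := by
      intro y hy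
      rw [Finset.mem_mul] at hy
      obtain ⟨a', ha', b', hb', rfl⟩ := hy
      rw [Finset.mem_filter] at ha'
      rw [Finset.mem_mul]
      rcases Finset.mem_union.mp hb' with hb | him
      · exact ⟨a', ha'.1, b', hb, rfl⟩
      · obtain ⟨b, hb, rfl⟩ := Finset.mem_image.mp him
        exact ⟨a' * x, ha'.2, b, hb, by group⟩
    -- hypotheses are preserved
    have h1A' : (1 : G) ∈ A ∪ A.image (· * x) := Finset.mem_union_left _ hA
    have h1B' : (1 : G) ∈ B.filter (fun b => x * b ∈ B) := by
      rw [Finset.mem_filter]; exact ⟨hB, by rw [mul_one]; exact hxB⟩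
    have hun' : ∀ a ∈ A ∪ A.image (· * x), ∀ b ∈ B.filter (fun b => x * b ∈ B),
        a * b = 1 → a = 1 := by
      intro a' ha' b' hb' hab
      rw [Finset.mem_filter] at hb'
      rcases Finset.mem_union.mp ha' with ha | him
      · exact huniq a' ha b' hb'.1 hab
      · exfalso
        obtain ⟨a, ha, rfl⟩ := Finset.mem_image.mp him
        have h3 : a * (x * b') = 1 := by rw [← hab]; group
        have h4 : a = 1 := huniq a ha (x * b') hb'.2 h3
        rw [h4, one_mul] at h3
        have h5 : b' = x⁻¹ := eq_inv_of_mul_eq_one_right h3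
        exact hxiB (h5 ▸ hb'.1)
    have h1A'' : (1 : G) ∈ A.filter (fun a => a * x ∈ A) := by
      rw [Finset.mem_filter]; exact ⟨hA, by rw [one_mul]; exact hxA⟩
    have h1B'' : (1 : G) ∈ B ∪ B.image (x * ·) := Finset.mem_union_left _ hB
    have hun'' : ∀ a ∈ A.filter (fun a => a * x ∈ A), ∀ b ∈ B ∪ B.image (x * ·),
        a * b = 1 → a = 1 := by
      intro a' ha' b' hb' hab
      rw [Finset.mem_filter] at ha'
      rcases Finset.mem_union.mp hb' with hb | him
      · exact huniq a' ha'.1 b' hb hab
      · exfalso
        obtain ⟨b, hb, rfl⟩ := Finset.mem_image.mp him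
        have h3 : (a' * x) * b = 1 := by rw [← hab]; group
        have h4 : a' * x = 1 := huniq (a' * x) ha'.2 b hb h3
        have h5 : a' = x⁻¹ := eq_inv_of_mul_eq_one_left h4
        exact hxiA (h5 ▸ ha'.1)
    -- `B` strictly shrinks under the first transform
    have hBlt : (B.filter (fun b => x * b ∈ B)).card < B.card := by
      apply Finset.card_lt_card
      refine ⟨Finset.filter_subset _ _, fun hsub => ?_⟩
      have hall : ∀ b ∈ B, x * b ∈ B := fun b hb => (Finset.mem_filter.mp (hsub hb)).2
      have himg : B.image (x * ·) ⊆ B := by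
        intro y hy
        obtain ⟨b, hb, rfl⟩ := Finset.mem_image.mp hy
        exact hall b hb
      have heq : B.image (x * ·) = B :=
        Finset.eq_of_subset_of_card_le himg
          (by rw [Finset.card_image_of_injective _ (mul_right_injective x)])
      have h1 : (1 : G) ∈ B.image (x * ·) := by rw [heq]; exact hB
      obtain ⟨b, hb, hxb⟩ := Finset.mem_image.mp h1
      have h5 : b = x⁻¹ := eq_inv_of_mul_eq_one_right hxb
      exact hxiB (h5 ▸ hb)
    have hc1 := Finset.card_le_card hsub1
    have hc2 := Finset.card_le_card hsub2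
    have hAle : A.card ≤ (A * B).card := Finset.card_le_card hAsub
    have hBle : B.card ≤ (A * B).card := Finset.card_le_card hBsub
    have hmpos : 0 < m := by omega
    rcases lt_trichotomy ((A ∪ A.image (· * x)).card + (B.filter (fun b => x * b ∈ B)).card)
        (A.card + B.card) with hlt | heq | hgt
    · -- the second transform has a strictly larger sum
      have := ihm (m - 1) (by omega) ((B ∪ B.image (x * ·)).card) _ _ h1A'' h1B'' hun''
        (by omega) (le_refl _)
      omega
    · have := ihn ((B.filter (fun b => x * b ∈ B)).card) (by omega) _ _ h1A' h1B' hun'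
        (by omega) (le_refl _)
      omega
    · have := ihm (m - 1) (by omega) ((B.filter (fun b => x * b ∈ B)).card) _ _ h1A' h1B' hun'
        (by omega) (le_refl _)
      omega

/-- **Kemperman's theorem** (unique representation form): if `1 ∈ A ∩ B` and `1 = 1 * 1` is the
only way of writing `1` as a product `a * b` with `a ∈ A`, `b ∈ B`, then
`|A| + |B| - 1 ≤ |A * B|`. -/
theorem kemperman (A B : Finset G) (hA : (1 : G) ∈ A) (hB : (1 : G) ∈ B)
    (huniq : ∀ a ∈ A, ∀ b ∈ B, a * b = 1 → a = 1) :
    A.card + B.card ≤ (A * B).card + 1 :=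
  kemperman_aux (2 * (A * B).card + 1) B.card A B hA hB huniq (by omega) (le_refl _)

end Kemperman

/-- **Seymour's second neighbourhood conjecture for vertex-transitive oriented graphs.**
Let `adj` be the arc relation of a finite oriented graph on `V` (no loops, no pair of opposite
arcs), and suppose that its automorphism group is transitive on `V`.  Then *every* vertex `v` has
at least as many vertices at directed distance exactly two as it has out-neighbours. -/
theorem result {V : Type} [Fintype V] [DecidableEq V] (adj : V → V → Prop) [DecidableRel adj]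
    (hasym : ∀ u v, adj u v → ¬ adj v u)
    (htrans : ∀ u v : V, ∃ σ : Equiv.Perm V, (∀ a b, adj a b ↔ adj (σ a) (σ b)) ∧ σ u = v)
    (v : V) :
    (Finset.univ.filter (fun u => adj v u)).card ≤
      (Finset.univ.filter (fun w => w ≠ v ∧ ¬ adj v w ∧ ∃ u, adj v u ∧ adj u w)).card := by
  classical
  have hirr : ∀ u, ¬ adj u u := fun u h => hasym u u h h
  have app_inv : ∀ (σ : Equiv.Perm V) (x : V), σ (σ⁻¹ x) = x := fun σ x => σ.apply_symm_apply x
  have inv_app : ∀ (σ : Equiv.Perm V) (x : V), σ⁻¹ (σ x) = x := fun σ x => σ.symm_apply_apply x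
  let IsAut : Equiv.Perm V → Prop := fun σ => ∀ a b, adj a b ↔ adj (σ a) (σ b)
  have aut_one : IsAut 1 := fun a b => Iff.rfl
  have aut_mul : ∀ σ τ, IsAut σ → IsAut τ → IsAut (σ * τ) := by
    intro σ τ hσ hτ a b
    rw [Equiv.Perm.mul_apply, Equiv.Perm.mul_apply]
    exact (hτ a b).trans (hσ _ _)
  have aut_inv : ∀ σ, IsAut σ → IsAut σ⁻¹ := by
    intro σ hσ a b
    have h := hσ (σ⁻¹ a) (σ⁻¹ b)
    rw [app_inv, app_inv] at h
    exact h.symm
  let S : Finset (Equiv.Perm V) := univ.filter (fun σ => IsAut σ ∧ adj v (σ v))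
  let H : Finset (Equiv.Perm V) := univ.filter (fun σ => IsAut σ ∧ σ v = v)
  have memS : ∀ σ, σ ∈ S ↔ IsAut σ ∧ adj v (σ v) := fun σ => by simp [S]
  have memH : ∀ σ, σ ∈ H ↔ IsAut σ ∧ σ v = v := fun σ => by simp [H]
  -- orbit counting
  have hfib : ∀ w : V,
      (univ.filter (fun σ : Equiv.Perm V => IsAut σ ∧ σ v = w)).card = H.card := by
    intro w
    obtain ⟨τ, hτ, hτw⟩ := htrans v w
    have hset : univ.filter (fun σ : Equiv.Perm V => IsAut σ ∧ σ v = w) = H.image (τ * ·) := by
      ext σ
      simp only [mem_filter, mem_univ, true_and, mem_image]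
      constructor
      · rintro ⟨hσ, hσw⟩
        refine ⟨τ⁻¹ * σ, (memH _).mpr ⟨aut_mul _ _ (aut_inv τ hτ) hσ, ?_⟩, by group⟩
        rw [Equiv.Perm.mul_apply, hσw, ← hτw, inv_app]
      · rintro ⟨ρ, hρ, rfl⟩
        obtain ⟨hρaut, hρv⟩ := (memH ρ).mp hρ
        exact ⟨aut_mul _ _ hτ hρaut, by rw [Equiv.Perm.mul_apply, hρv, hτw]⟩
    rw [hset, Finset.card_image_of_injective _ (mul_right_injective τ)]
  have count : ∀ W : Finset V,
      (univ.filter (fun σ : Equiv.Perm V => IsAut σ ∧ σ v ∈ W)).card = W.card * H.card := by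
    intro W
    have hset : univ.filter (fun σ : Equiv.Perm V => IsAut σ ∧ σ v ∈ W)
        = W.biUnion (fun w => univ.filter (fun σ : Equiv.Perm V => IsAut σ ∧ σ v = w)) := by
      ext σ
      simp only [mem_filter, mem_univ, true_and, mem_biUnion]
      constructor
      · rintro ⟨hσ, hσW⟩
        exact ⟨σ v, hσW, hσ, rfl⟩
      · rintro ⟨w, hw, hσ, rfl⟩
        exact ⟨hσ, hw⟩
    rw [hset, Finset.card_biUnion]
    · rw [Finset.sum_congr rfl (fun w _ => hfib w), Finset.sum_const, smul_eq_mul]
    · intro w _ w' _ hww'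
      show Disjoint _ _
      rw [Finset.disjoint_left]
      intro σ h1 h2
      simp only [mem_filter, mem_univ, true_and] at h1 h2
      exact hww' (h1.2.symm.trans h2.2)
  -- the two sets for Kemperman's theorem
  have h1H : (1 : Equiv.Perm V) ∈ H := (memH 1).mpr ⟨aut_one, rfl⟩
  have h1S : (1 : Equiv.Perm V) ∉ S := fun h => hirr v ((memS 1).mp h).2
  have h1A : (1 : Equiv.Perm V) ∈ insert 1 S := mem_insert_self _ _
  have h1B : (1 : Equiv.Perm V) ∈ S ∪ H := mem_union_right _ h1H
  have huniq : ∀ a ∈ insert 1 S, ∀ b ∈ S ∪ H, a * b = 1 → a = 1 := by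
    intro σ hσ τ hτ hστ
    rcases mem_insert.mp hσ with h | hσS
    · exact h
    · exfalso
      have hτeq : τ = σ⁻¹ := eq_inv_of_mul_eq_one_right hστ
      obtain ⟨hσaut, hσadj⟩ := (memS σ).mp hσS
      rcases mem_union.mp hτ with hτS | hτH
      · have hτadj := ((memS τ).mp hτS).2
        rw [hτeq] at hτadj
        have h2 := (hσaut v (σ⁻¹ v)).mp hτadj
        rw [app_inv] at h2
        exact hasym _ _ hσadj h2
      · have hτv := ((memH τ).mp hτH).2
        rw [hτeq] at hτv
        have h2 : σ v = v := by
          have h3 := congrArg σ hτv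
          rw [app_inv] at h3
          exact h3.symm
        rw [h2] at hσadj
        exact hirr v hσadj
  have hK := kemperman (insert 1 S) (S ∪ H) h1A h1B huniq
  -- sizes
  set N1 : Finset V := univ.filter (fun u => adj v u) with hN1
  set N2 : Finset V := univ.filter (fun w => w ≠ v ∧ ¬ adj v w ∧ ∃ u, adj v u ∧ adj u w)
    with hN2
  have hScard : S.card = N1.card * H.card := by
    rw [← count N1]
    congr 1
    ext σ
    simp [S, N1]
  have hAcard : (insert 1 S).card = S.card + 1 := card_insert_of_notMem h1S
  have hBcard : (S ∪ H).card = S.card + H.card := by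
    apply card_union_of_disjoint
    rw [Finset.disjoint_left]
    intro σ hσS hσH
    have h1 := ((memS σ).mp hσS).2
    rw [((memH σ).mp hσH).2] at h1
    exact hirr v h1
  have hprod : insert 1 S * (S ∪ H)
      ⊆ univ.filter (fun σ : Equiv.Perm V => IsAut σ ∧ σ v ∈ insert v (N1 ∪ N2)) := by
    intro ρ hρ
    rw [Finset.mem_mul] at hρ
    obtain ⟨σ, hσ, τ, hτ, rfl⟩ := hρ
    have hσaut : IsAut σ := by
      rcases mem_insert.mp hσ with h | h
      · rw [h]; exact aut_one
      · exact ((memS σ).mp h).1
    have hτaut : IsAut τ := by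
      rcases mem_union.mp hτ with h | h
      · exact ((memS τ).mp h).1
      · exact ((memH τ).mp h).1
    simp only [mem_filter, mem_univ, true_and]
    refine ⟨aut_mul _ _ hσaut hτaut, ?_⟩
    rw [Equiv.Perm.mul_apply]
    -- where does `σ (τ v)` lie?
    have hmem : ∀ w : V, (w = v ∨ adj v w ∨ ∃ u, adj v u ∧ adj u w) → w ∈ insert v (N1 ∪ N2) := by
      intro w hw
      by_cases hwv : w = v
      · rw [hwv]; exact mem_insert_self _ _
      · apply mem_insert_of_mem
        by_cases hvw : adj v w
        · exact mem_union_left _ (by simp [N1, hvw])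
        · rcases hw with h | h | h
          · exact absurd h hwv
          · exact absurd h hvw
          · exact mem_union_right _ (by
              rw [hN2, mem_filter]
              exact ⟨mem_univ _, hwv, hvw, h⟩)
    apply hmem
    rcases mem_insert.mp hσ with h | hσS
    · rw [h, Equiv.Perm.one_apply]
      rcases mem_union.mp hτ with hτS | hτH
      · exact Or.inr (Or.inl ((memS τ).mp hτS).2)
      · exact Or.inl ((memH τ).mp hτH).2
    · have hσadj := ((memS σ).mp hσS).2
      rcases mem_union.mp hτ with hτS | hτH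
      · have hτadj := ((memS τ).mp hτS).2
        exact Or.inr (Or.inr ⟨σ v, hσadj, (hσaut v (τ v)).mp hτadj⟩)
      · rw [((memH τ).mp hτH).2]
        exact Or.inr (Or.inl hσadj)
  have hprodcard := Finset.card_le_card hprod
  rw [count] at hprodcard
  have hW : (insert v (N1 ∪ N2)).card ≤ 1 + N1.card + N2.card := by
    have h1 := Finset.card_insert_le v (N1 ∪ N2)
    have h2 := Finset.card_union_le N1 N2
    omega
  have hHpos : 0 < H.card := Finset.card_pos.mpr ⟨1, h1H⟩
  -- arithmetic
  have hmain : (2 * N1.card + 1) * H.card ≤ (1 + N1.card + N2.card) * H.card := by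
    calc (2 * N1.card + 1) * H.card = (S.card + 1) + (S.card + H.card) - 1 := by
          rw [hScard]; have := Nat.mul_pos (Nat.succ_pos (2 * N1.card)) hHpos
          have e : (2 * N1.card + 1) * H.card = N1.card * H.card + N1.card * H.card + H.card := by
            ring
          omega
      _ ≤ (insert 1 S * (S ∪ H)).card := by rw [← hAcard, ← hBcard]; omega
      _ ≤ (insert v (N1 ∪ N2)).card * H.card := hprodcard
      _ ≤ (1 + N1.card + N2.card) * H.card := Nat.mul_le_mul_right _ hW
  have hfin := Nat.le_of_mul_le_mul_right hmain hHpos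
  omega

end Vale.Agent.Results.P038.VertexTransitive
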